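import Mathlib
import Vale.Agent.Lib.P243.Sym.Levels

/-!
# P243 (Bang's half-area cylinder covering problem): centrally symmetric convex bodies

Ambient space: `Fin 3 → ℝ` with the dot product `⬝ᵥ` and Lebesgue measure.

Let `K` be a centrally symmetric convex body: compact, convex, with nonempty interior, and
symmetric about a point `c` (the reflection `2 c - x` of every `x ∈ K` lies in `K`). For `i < m`
the `i`-th cylinder is given by an orthonormal pair `e i, f i` (spanning the plane orthogonal to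
its axis) and a base `B i : Set (ℝ × ℝ)` written in the orthonormal coordinates `(e i, f i)` of
that plane: it is the set `{x | (e i ⬝ᵥ x, f i ⬝ᵥ x) ∈ B i}`. The planar area of its base is
`volume (B i)`, and the planar area of the orthogonal projection of `K` along its axis is the
Lebesgue measure of the image of `K` under `x ↦ (e i ⬝ᵥ x, f i ⬝ᵥ x)`.

If the `m` cylinders cover `K`, then the directionwise relative area
`R = ∑ i, |B i| / |π_i K|` is at least `5 / 12` (for arbitrary convex bodies only `1 / 3` is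
known). No condition on the number or the directions of the cylinders, or on the shape of
their bases, is imposed.

Proof idea (after translating `c` to the origin): weigh the points `x` of `K` by the density
`g(x) + 1 / 2`, where `g` is the gauge (Minkowski functional) of `K`; in the formal proof the
density is replaced by the step functions `1 / 2 + #{j < N : x ∉ ((j + 1) / N) K} / N` and `N`
tends to infinity. Let `D` be the projection of `K` along an axis and `l` the chord length
function on `D` (concave and even). For `p ∈ D` let `T p` be the boundary point of `D` on the ray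
through `p`. Concavity of `l` between `p` and `T p` bounds the part of the chord over `p` inside
each homothetic copy `s K` from below, and comparing `l` with the tent function over the segment
`[-p, p]` (a planar Brunn-Minkowski type estimate by sections parallel to `p`) gives
`l(p) (1 / 3 + 1 / (6 T)) |D| ≤ vol K`. Together: every chord has weighted length at most
`3 vol K / |D|`, so a cylinder with base `B` has weighted volume at most `3 vol K |B| / |D|`,
while `K` has weighted volume `(5 / 4) vol K` (in the limit).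
-/

open MeasureTheory Set

namespace Vale.Agent.Results.P243.CentrallySymmetric

theorem result (K : Set (Fin 3 → ℝ)) (hKc : IsCompact K) (hK : Convex ℝ K)
    (hKi : (interior K).Nonempty) (c : Fin 3 → ℝ) (hsymm : ∀ x ∈ K, (2 : ℝ) • c - x ∈ K)
    (m : ℕ) (e f : Fin m → Fin 3 → ℝ)
    (hframe : ∀ i, e i ⬝ᵥ e i = 1 ∧ f i ⬝ᵥ f i = 1 ∧ e i ⬝ᵥ f i = 0)
    (B : Fin m → Set (ℝ × ℝ))
    (hcover : K ⊆ ⋃ i, {x | (e i ⬝ᵥ x, f i ⬝ᵥ x) ∈ B i}) :
    (5 / 12 : ENNReal) ≤ ∑ i, volume (B i) /
      volume ((fun x : Fin 3 → ℝ => (e i ⬝ᵥ x, f i ⬝ᵥ x)) '' K) := by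
  have hK'c : IsCompact ((fun x : Fin 3 → ℝ => x - c) '' K) := hKc.image (by fun_prop)
  have hK'conv : Convex ℝ ((fun x : Fin 3 → ℝ => x - c) '' K) := by
    have e1 : (fun x : Fin 3 → ℝ => x - c) '' K = (fun x => -c + x) '' K := by
      apply image_congr
      intro x _
      abel
    rw [e1]
    exact hK.translate (-c)
  have hK'i : (interior ((fun x : Fin 3 → ℝ => x - c) '' K)).Nonempty := by
    obtain ⟨x0, hx0⟩ := hKi
    refine ⟨x0 - c, ?_⟩
    have h := (Homeomorph.subRight c).image_interior K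
    have h2 : x0 - c ∈ (Homeomorph.subRight c) '' interior K := ⟨x0, hx0, rfl⟩
    rw [h] at h2
    exact h2
  have hK'sym : ∀ y ∈ (fun x : Fin 3 → ℝ => x - c) '' K,
      -y ∈ (fun x : Fin 3 → ℝ => x - c) '' K := by
    rintro _ ⟨x, hx, rfl⟩
    refine ⟨(2:ℝ) • c - x, hsymm x hx, ?_⟩
    show (2:ℝ) • c - x - c = -(x - c)
    rw [two_smul]
    abel
  have hcover' : (fun x : Fin 3 → ℝ => x - c) '' K
      ⊆ ⋃ i, Vale.Agent.Lib.P243.H19.frameProj (e i) (f i) ⁻¹'
        ((fun q : ℝ × ℝ => q + (e i ⬝ᵥ c, f i ⬝ᵥ c)) ⁻¹' B i) := by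
    rintro _ ⟨x, hx, rfl⟩
    obtain ⟨i, hi⟩ := mem_iUnion.1 (hcover hx)
    refine mem_iUnion.2 ⟨i, ?_⟩
    show (e i ⬝ᵥ (x - c), f i ⬝ᵥ (x - c)) + (e i ⬝ᵥ c, f i ⬝ᵥ c) ∈ B i
    have e2 : (e i ⬝ᵥ (x - c), f i ⬝ᵥ (x - c)) + (e i ⬝ᵥ c, f i ⬝ᵥ c)
        = (e i ⬝ᵥ x, f i ⬝ᵥ x) := by
      simp [dotProduct_sub]
    rw [e2]
    exact hi
  have h := Vale.Agent.Lib.P243.Sym.cover_sharp ((fun x : Fin 3 → ℝ => x - c) '' K) hK'c
    hK'conv hK'i hK'sym m e f (fun i => (hframe i).1) (fun i => (hframe i).2.1)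
    (fun i => (hframe i).2.2) (fun i => (fun q : ℝ × ℝ => q + (e i ⬝ᵥ c, f i ⬝ᵥ c)) ⁻¹' B i)
    hcover'
  have hB : ∀ i, volume ((fun q : ℝ × ℝ => q + (e i ⬝ᵥ c, f i ⬝ᵥ c)) ⁻¹' B i)
      = volume (B i) := by
    intro i
    exact measure_preimage_add_right volume (e i ⬝ᵥ c, f i ⬝ᵥ c) (B i)
  have hD : ∀ i, volume (Vale.Agent.Lib.P243.H19.frameProj (e i) (f i)
        '' ((fun x : Fin 3 → ℝ => x - c) '' K))
      = volume ((fun x : Fin 3 → ℝ => (e i ⬝ᵥ x, f i ⬝ᵥ x)) '' K) := by
    intro i
    have e3 : Vale.Agent.Lib.P243.H19.frameProj (e i) (f i)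
          '' ((fun x : Fin 3 → ℝ => x - c) '' K)
        = (fun q : ℝ × ℝ => q + (e i ⬝ᵥ c, f i ⬝ᵥ c)) ⁻¹'
          ((fun x : Fin 3 → ℝ => (e i ⬝ᵥ x, f i ⬝ᵥ x)) '' K) := by
      ext q
      constructor
      · rintro ⟨_, ⟨x, hx, rfl⟩, rfl⟩
        refine ⟨x, hx, ?_⟩
        simp [Vale.Agent.Lib.P243.H19.frameProj_apply, dotProduct_sub]
      · rintro ⟨x, hx, hxe⟩
        refine ⟨x - c, ⟨x, hx, rfl⟩, ?_⟩
        have hxe' : (e i ⬝ᵥ x, f i ⬝ᵥ x) = q + (e i ⬝ᵥ c, f i ⬝ᵥ c) := hxe
        rw [Vale.Agent.Lib.P243.H19.frameProj_apply, dotProduct_sub, dotProduct_sub]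
        have h1 := congrArg Prod.fst hxe'
        have h2 := congrArg Prod.snd hxe'
        simp only [Prod.fst_add, Prod.snd_add] at h1 h2
        ext
        · simp only
          linarith
        · simp only
          linarith
    rw [e3]
    exact measure_preimage_add_right volume (e i ⬝ᵥ c, f i ⬝ᵥ c) _
  simp only [hB, hD] at h
  have e5 : (5 / 12 : ENNReal) = ENNReal.ofReal (5 / 12) := by
    rw [ENNReal.ofReal_div_of_pos (by norm_num)]
    norm_num
  rw [e5]
  exact h

end Vale.Agent.Results.P243.CentrallySymmetric
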