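import Vale.Agent.Lib.P243.Space

/-!
# P243 (Bang's half-area cylinder covering problem): cylinders with axes parallel to a plane

If a compact convex set `K` of Euclidean 3-space is covered by finitely many cylinders
`B i + ℝ u i` (`u i` unit vectors, `B i` any subset of the plane orthogonal to `u i`) whose axis
directions `u i` are all orthogonal to one unit vector `e` (i.e. all axes are parallel to a common
plane), then some orthogonal projection of `K` along a unit vector `v` orthogonal to `e` has area at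
most twice the total base area.  Areas are 2-dimensional Euclidean Hausdorff measures.
-/

namespace Vale.Agent.Results.P243.CoplanarAxes

open scoped RealInnerProductSpace

theorem result
    (K : Set (EuclideanSpace ℝ (Fin 3))) (hK : Convex ℝ K) (hKc : IsCompact K)
    (e : EuclideanSpace ℝ (Fin 3)) (he : ‖e‖ = 1)
    (m : ℕ) (u : Fin m → EuclideanSpace ℝ (Fin 3)) (hu : ∀ i, ‖u i‖ = 1)
    (hue : ∀ i, ⟪u i, e⟫ = 0)
    (B : Fin m → Set (EuclideanSpace ℝ (Fin 3)))
    (hBu : ∀ i, ∀ b ∈ B i, ⟪b, u i⟫ = 0)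
    (hcov : ∀ x ∈ K, ∃ i, ∃ b ∈ B i, ∃ t : ℝ, x = b + t • u i) :
    ∃ v : EuclideanSpace ℝ (Fin 3), ‖v‖ = 1 ∧ ⟪v, e⟫ = 0 ∧
      MeasureTheory.Measure.euclideanHausdorffMeasure 2
          ((fun x : EuclideanSpace ℝ (Fin 3) => x - ⟪x, v⟫ • v) '' K)
        ≤ 2 * ∑ i, MeasureTheory.Measure.euclideanHausdorffMeasure 2 (B i) :=
  Vale.Agent.Lib.P243.coplanar_axes K hK hKc e he m u hu hue B hBu hcov

end Vale.Agent.Results.P243.CoplanarAxes
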