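import Mathlib
import Vale.Agent.Lib.P243.H19.Frame

/-!
# P243 (Bang's half-area cylinder covering problem): edge-parallel coverings of a tetrahedron

Ambient space: `Fin 3 → ℝ` with the dot product `⬝ᵥ` and Lebesgue measure.

Let `T` be any nondegenerate tetrahedron, with vertices `v 0, ..., v 3`. For each `i < m` let
`e i, f i` be an orthonormal pair of vectors, both orthogonal to some edge `v a - v b` of `T`, and
let `B i` be any subset of `ℝ × ℝ`. The set `{x | (e i ⬝ᵥ x, f i ⬝ᵥ x) ∈ B i}` is the cylinder whose
axis is parallel to that edge and whose base, written in the orthonormal coordinates `(e i, f i)` of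
the plane orthogonal to the axis, is `B i`; so the planar area of its base is `volume (B i)`, and
the planar area of the orthogonal projection of `T` onto that plane is the Lebesgue measure of the
image of `T` under `x ↦ (e i ⬝ᵥ x, f i ⬝ᵥ x)`.

If these cylinders cover `T`, then the directionwise relative area satisfies

  `∑ i, |B i| / |π_i T| ≥ 1 / 2`.

This is the bound of the 1-codimensional cylinder covering conjecture (Bezdek and Khan) for this
class of coverings; it is attained by Bang's two cylinders.

Proof idea: put on `T` the measure with density `1` plus the indicator of the middle octahedron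
`O` (the points all of whose barycentric coordinates are at most `1/2`). Every line parallel to an
edge meets `T` and `O` in total length at most the length of that edge, while
`vol T + vol O = (3/2) vol T` and `3 vol T = (edge length) * |π T|`.
-/

open MeasureTheory

namespace Vale.Agent.Results.P243.H19_EdgeParallel

theorem result (v : Fin 4 → Fin 3 → ℝ) (hv : AffineIndependent ℝ v)
    (m : ℕ) (e f : Fin m → Fin 3 → ℝ) (B : Fin m → Set (ℝ × ℝ))
    (hframe : ∀ i, e i ⬝ᵥ e i = 1 ∧ f i ⬝ᵥ f i = 1 ∧ e i ⬝ᵥ f i = 0 ∧
      ∃ a b : Fin 4, a ≠ b ∧ e i ⬝ᵥ (v a - v b) = 0 ∧ f i ⬝ᵥ (v a - v b) = 0)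
    (hcover : convexHull ℝ (Set.range v) ⊆ ⋃ i, {x | (e i ⬝ᵥ x, f i ⬝ᵥ x) ∈ B i}) :
    (1 / 2 : ENNReal) ≤ ∑ i, volume (B i) /
      volume ((fun x : Fin 3 → ℝ => (e i ⬝ᵥ x, f i ⬝ᵥ x)) '' convexHull ℝ (Set.range v)) := by
  rw [Vale.Agent.Lib.P243.H19.convexHull_range_eq_tet] at hcover ⊢
  exact Vale.Agent.Lib.P243.H19.edge_parallel_bound v hv m e f B hframe hcover

end Vale.Agent.Results.P243.H19_EdgeParallel
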