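import Mathlib
import Vale.Agent.Lib.P243.H19.Cover

/-!
# P243 (Bang's half-area cylinder covering problem): covers with few axis directions

Ambient space: `Fin 3 → ℝ` with the dot product `⬝ᵥ` and Lebesgue measure.

Let `K` be any convex body (compact, convex, nonempty interior). Let `e j, f j` (`j < k`) be
orthonormal pairs of vectors: the `j`-th pair spans the plane orthogonal to the `j`-th axis
direction. For `i < m` the `i`-th cylinder has axis direction number `d i` and base
`B i : Set (ℝ × ℝ)`, written in the orthonormal coordinates `(e (d i), f (d i))` of the plane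
orthogonal to its axis: it is the set `{x | (e (d i) ⬝ᵥ x, f (d i) ⬝ᵥ x) ∈ B i}`. The planar area
of its base is `volume (B i)`, and the planar area of the orthogonal projection of `K` along its
axis is the Lebesgue measure of the image of `K` under `x ↦ (e (d i) ⬝ᵥ x, f (d i) ⬝ᵥ x)`.

If the `m` cylinders cover `K`, then the directionwise relative area
`R = ∑ i, |B i| / |π_i K|` satisfies

* `R ≥ 1 / 2` if the axes take at most two directions (`k ≤ 2`);
* `R ≥ 1 / 3 + 2 / (9 √(3 k))` for every number `k` of axis directions;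
* `R ≥ k x ^ 2` for every `0 ≤ x < 1` with `k (3 x ^ 2 - 2 x ^ 3) ≤ 1`.

Proof idea (a sharp concentration bound): a cylinder whose base covers the fraction `s ^ 2` of the
projection of `K` along its axis contains at most the fraction `3 s ^ 2 - 2 s ^ 3` of the volume
of `K`. Indeed the chord length in the axis direction is a concave function on the projection, so
by the planar Brunn-Minkowski inequality the square root of the area of its superlevel sets is
concave in the level; comparing this profile with the profile of a cone gives the bound. Summing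
over the cylinders of a cover (after merging the cylinders with the same direction) gives
`∑_j (3 s_j ^ 2 - 2 s_j ^ 3) ≥ 1`, and the three bounds follow from the tangent lines of the
concave function `b ↦ 3 b - 2 b ^ (3/2)`.
-/

open MeasureTheory

namespace Vale.Agent.Results.P243.H19_FewDirections

theorem result (K : Set (Fin 3 → ℝ)) (hKc : IsCompact K) (hK : Convex ℝ K)
    (hKi : (interior K).Nonempty) (k m : ℕ) (e f : Fin k → Fin 3 → ℝ)
    (hframe : ∀ j, e j ⬝ᵥ e j = 1 ∧ f j ⬝ᵥ f j = 1 ∧ e j ⬝ᵥ f j = 0)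
    (d : Fin m → Fin k) (B : Fin m → Set (ℝ × ℝ))
    (hcover : K ⊆ ⋃ i, {x | (e (d i) ⬝ᵥ x, f (d i) ⬝ᵥ x) ∈ B i}) :
    (k ≤ 2 → (1 / 2 : ENNReal) ≤ ∑ i, volume (B i) /
        volume ((fun x : Fin 3 → ℝ => (e (d i) ⬝ᵥ x, f (d i) ⬝ᵥ x)) '' K)) ∧
    ENNReal.ofReal (1 / 3 + 2 / (9 * √(3 * (k : ℝ)))) ≤ ∑ i, volume (B i) /
        volume ((fun x : Fin 3 → ℝ => (e (d i) ⬝ᵥ x, f (d i) ⬝ᵥ x)) '' K) ∧
    ∀ x : ℝ, 0 ≤ x → x < 1 → k * (3 * x ^ 2 - 2 * x ^ 3) ≤ 1 →
      ENNReal.ofReal (k * x ^ 2) ≤ ∑ i, volume (B i) /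
        volume ((fun x : Fin 3 → ℝ => (e (d i) ⬝ᵥ x, f (d i) ⬝ᵥ x)) '' K) := by
  have hee : ∀ j, e j ⬝ᵥ e j = 1 := fun j => (hframe j).1
  have hff : ∀ j, f j ⬝ᵥ f j = 1 := fun j => (hframe j).2.1
  have hef : ∀ j, e j ⬝ᵥ f j = 0 := fun j => (hframe j).2.2
  obtain ⟨b, hb0, -, hmaster, hR⟩ := Vale.Agent.Lib.P243.H19.cover_real K hKc hK hKi k m e f
    hee hff hef d B hcover
  refine ⟨fun hk => ?_, ?_, fun x hx0 hx1 hkx => ?_⟩
  · have h := Vale.Agent.Lib.P243.H19.bound_half k hk b hb0 hmaster
    have e1 : (1 / 2 : ENNReal) = ENNReal.ofReal (1 / 2) := by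
      rw [ENNReal.ofReal_div_of_pos (by norm_num)]
      simp
    rw [e1]
    exact le_trans (ENNReal.ofReal_le_ofReal h) hR
  · exact le_trans (ENNReal.ofReal_le_ofReal
      (Vale.Agent.Lib.P243.H19.bound_general k b hb0 hmaster)) hR
  · exact le_trans (ENNReal.ofReal_le_ofReal
      (Vale.Agent.Lib.P243.H19.bound_sharp k b hb0 hmaster x hx0 hx1 hkx)) hR

end Vale.Agent.Results.P243.H19_FewDirections
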