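import Vale.Agent.Lib.P243.RelF

/-!
# P243 (Bang's half-area cylinder covering problem): the relative form for two cylinders

Let `K` be a convex body of Euclidean 3-space (compact, convex, nonempty interior) covered by two
cylinders `B₁ + ℝ u₁` and `B₂ + ℝ u₂` (`u₁, u₂` arbitrary unit vectors, `B₁, B₂` any subsets of the
planes orthogonal to `u₁, u₂`).  Then the directionwise relative area satisfies
`|B₁| / |π₁ K| + |B₂| / |π₂ K| ≥ 1/2`, where `πⱼ K` is the orthogonal projection of `K` along `uⱼ`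
and areas are 2-dimensional Euclidean Hausdorff measures; both projections have positive finite
area, so the quotients are genuine.
-/

namespace Vale.Agent.Results.P243.RelativeTwo

open scoped RealInnerProductSpace

theorem result
    (K : Set (EuclideanSpace ℝ (Fin 3))) (hK : Convex ℝ K) (hKc : IsCompact K)
    (hKi : (interior K).Nonempty)
    (u₁ u₂ : EuclideanSpace ℝ (Fin 3)) (hu₁ : ‖u₁‖ = 1) (hu₂ : ‖u₂‖ = 1)
    (B₁ B₂ : Set (EuclideanSpace ℝ (Fin 3)))
    (hB₁ : ∀ b ∈ B₁, ⟪b, u₁⟫ = 0) (hB₂ : ∀ b ∈ B₂, ⟪b, u₂⟫ = 0)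
    (hcov : ∀ x ∈ K,
      (∃ b ∈ B₁, ∃ t : ℝ, x = b + t • u₁) ∨ (∃ b ∈ B₂, ∃ t : ℝ, x = b + t • u₂)) :
    0 < MeasureTheory.Measure.euclideanHausdorffMeasure 2
        ((fun x : EuclideanSpace ℝ (Fin 3) => x - ⟪x, u₁⟫ • u₁) '' K) ∧
    MeasureTheory.Measure.euclideanHausdorffMeasure 2
        ((fun x : EuclideanSpace ℝ (Fin 3) => x - ⟪x, u₁⟫ • u₁) '' K) < ⊤ ∧
    0 < MeasureTheory.Measure.euclideanHausdorffMeasure 2
        ((fun x : EuclideanSpace ℝ (Fin 3) => x - ⟪x, u₂⟫ • u₂) '' K) ∧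
    MeasureTheory.Measure.euclideanHausdorffMeasure 2
        ((fun x : EuclideanSpace ℝ (Fin 3) => x - ⟪x, u₂⟫ • u₂) '' K) < ⊤ ∧
    (1 / 2 : ENNReal) ≤
      MeasureTheory.Measure.euclideanHausdorffMeasure 2 B₁
          / MeasureTheory.Measure.euclideanHausdorffMeasure 2
              ((fun x : EuclideanSpace ℝ (Fin 3) => x - ⟪x, u₁⟫ • u₁) '' K)
        + MeasureTheory.Measure.euclideanHausdorffMeasure 2 B₂
          / MeasureTheory.Measure.euclideanHausdorffMeasure 2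
              ((fun x : EuclideanSpace ℝ (Fin 3) => x - ⟪x, u₂⟫ • u₂) '' K) :=
  Vale.Agent.Lib.P243.relative_two K hK hKc hKi u₁ u₂ hu₁ hu₂ B₁ B₂ hB₁ hB₂ hcov

end Vale.Agent.Results.P243.RelativeTwo
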