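import Vale.Agent.Lib.P243.Space

/-!
# P243 (Bang's half-area cylinder covering problem): coverings by two cylinders

If a compact convex set `K` of Euclidean 3-space is covered by two cylinders `B₁ + ℝ u₁` and
`B₂ + ℝ u₂` (`u₁, u₂` arbitrary unit vectors, `B₁, B₂` any subsets of the planes orthogonal to
`u₁, u₂`), then some orthogonal projection of `K` has area at most twice the total base area.
Areas are 2-dimensional Euclidean Hausdorff measures.
-/

namespace Vale.Agent.Results.P243.TwoCylinders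

open scoped RealInnerProductSpace

theorem result
    (K : Set (EuclideanSpace ℝ (Fin 3))) (hK : Convex ℝ K) (hKc : IsCompact K)
    (u₁ u₂ : EuclideanSpace ℝ (Fin 3)) (hu₁ : ‖u₁‖ = 1) (hu₂ : ‖u₂‖ = 1)
    (B₁ B₂ : Set (EuclideanSpace ℝ (Fin 3)))
    (hB₁ : ∀ b ∈ B₁, ⟪b, u₁⟫ = 0) (hB₂ : ∀ b ∈ B₂, ⟪b, u₂⟫ = 0)
    (hcov : ∀ x ∈ K,
      (∃ b ∈ B₁, ∃ t : ℝ, x = b + t • u₁) ∨ (∃ b ∈ B₂, ∃ t : ℝ, x = b + t • u₂)) :
    ∃ v : EuclideanSpace ℝ (Fin 3), ‖v‖ = 1 ∧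
      MeasureTheory.Measure.euclideanHausdorffMeasure 2
          ((fun x : EuclideanSpace ℝ (Fin 3) => x - ⟪x, v⟫ • v) '' K)
        ≤ 2 * (MeasureTheory.Measure.euclideanHausdorffMeasure 2 B₁
            + MeasureTheory.Measure.euclideanHausdorffMeasure 2 B₂) :=
  Vale.Agent.Lib.P243.two_cylinders K hK hKc u₁ u₂ hu₁ hu₂ B₁ B₂ hB₁ hB₂ hcov

end Vale.Agent.Results.P243.TwoCylinders
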